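import Vale.Agent.P197.Bridge

namespace Vale.Agent.Results.P197.Saxl

open Vale.Agent.P197

theorem result (m : ℕ) (hm : 1 ≤ m) (nu : YoungDiagram) (hnu : nu.card = m * (m + 1) / 2) :
    0 < kronecker (m * (m + 1) / 2) (staircase m) (staircase m) nu := by
  have h : m * (m + 1) / 2 = tri m + 0 := by
    have := two_mul_tri m
    omega
  rw [h] at hnu ⊢
  exact saxl m nu hnu

end Vale.Agent.Results.P197.Saxl
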